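import Vale.Agent.P074.Main

/-!
P074: the stability exponent of quadratic optimal transport maps is exactly one third in every
dimension `d ≥ 2`, and it is attained.
-/

namespace Vale.Agent.Results.P074.OneThird

open MeasureTheory Set

/-- Euclidean space `ℝ^d`. -/
abbrev Rd (d : ℕ) := EuclideanSpace ℝ (Fin d)

/-- The uniform probability measure `|K|⁻¹ 1_K dx`. -/
noncomputable def unif {d : ℕ} (K : Set (Rd d)) : Measure (Rd d) :=
  (volume K)⁻¹ • volume.restrict K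

/-- `T` is a quadratic optimal transport map from `ρ` to `μ`: a Borel map pushing `ρ` to `μ`
which minimizes `∫ |x - T x|² dρ` among all such maps. -/
def IsOptimalMap {d : ℕ} (ρ μ : Measure (Rd d)) (T : Rd d → Rd d) : Prop :=
  Measurable T ∧ ρ.map T = μ ∧ ∀ S : Rd d → Rd d, Measurable S → ρ.map S = μ →
    ∫ x, ‖x - T x‖ ^ 2 ∂ρ ≤ ∫ x, ‖x - S x‖ ^ 2 ∂ρ

/-- The Wasserstein distance `W₂`: infimum over couplings `κ` of `(∫ |y - z|² dκ)^(1/2)`. -/
noncomputable def W2 {d : ℕ} (μ ν : Measure (Rd d)) : ℝ :=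
  sInf {w | ∃ κ : Measure (Rd d × Rd d), κ.map Prod.fst = μ ∧ κ.map Prod.snd = ν ∧
    w = √(∫ p, ‖p.1 - p.2‖ ^ 2 ∂κ)}

/-- `μ` is a Borel probability measure supported in `Y`. -/
def ProbOn {d : ℕ} (Y : Set (Rd d)) (μ : Measure (Rd d)) : Prop :=
  IsProbabilityMeasure μ ∧ μ Yᶜ = 0

/-- `K` is compact, convex, with nonempty interior. -/
def ConvexBody' {d : ℕ} (K : Set (Rd d)) : Prop :=
  IsCompact K ∧ Convex ℝ K ∧ (interior K).Nonempty

/-- `α` is an admissible exponent in dimension `d`. -/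
def Admissible (d : ℕ) (α : ℝ) : Prop :=
  α ∈ Ioc (0 : ℝ) 1 ∧ ∀ K Y : Set (Rd d), ConvexBody' K → IsCompact Y → Y.Nonempty →
    ∃ C : ℝ, ∀ μ ν, ProbOn Y μ → ProbOn Y ν → ∀ T S,
      IsOptimalMap (unif K) μ T → IsOptimalMap (unif K) ν S →
        √(∫ x, ‖T x - S x‖ ^ 2 ∂unif K) ≤ C * W2 μ ν ^ α

theorem result (d : ℕ) (hd : 2 ≤ d) :
    IsGreatest {α | Admissible d α} (1 / 3) ∧
      ∀ K Y : Set (Rd d), ConvexBody' K → IsCompact Y → ∀ μ, ProbOn Y μ →
        ∃ T, IsOptimalMap (unif K) μ T := by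
  have hB : ∀ K : Set (Rd d), ConvexBody' K → ∃ R, P074.Body K R := fun K hK => by
    obtain ⟨R, R0, hR⟩ := hK.1.isBounded.exists_pos_norm_le
    exact ⟨R, hK.1, hK.2.1, hK.2.2, R0, hR⟩
  refine ⟨⟨⟨by norm_num, fun K Y hK hY _ => ?_⟩, fun α hα => ?_⟩, fun K Y hK hY μ hμ => ?_⟩
  · obtain ⟨R, h⟩ := hB K hK
    obtain ⟨C, C0, hC⟩ := P074.upper h (by omega) hY
    refine ⟨C, fun μ ν hμ hν T S hT hS => ?_⟩
    have := hμ.1
    have := hν.1
    have key := hC μ ν hμ.2 hν.2 T S hT hS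
    change √(∫ x, ‖T x - S x‖ ^ 2 ∂P074.un K) ≤ _
    have J0 := Real.sqrt_nonneg (∫ x, ‖T x - S x‖ ^ 2 ∂P074.un K)
    generalize √(∫ x, ‖T x - S x‖ ^ 2 ∂P074.un K) = J at *
    have h1 : (J / C) ^ (3 : ℝ) ≤ W2 μ ν := by
      refine le_csInf ⟨_, μ.prod ν, by simp, by simp, rfl⟩ ?_
      rintro w ⟨κ, e1, e2, rfl⟩
      have := Real.rpow_le_rpow (by positivity) ((div_le_iff₀' C0).2 (key κ e1 e2))
        (show (0 : ℝ) ≤ 3 by norm_num)
      rwa [← Real.rpow_mul (Real.sqrt_nonneg _), show (1 / 3 * 3 : ℝ) = 1 by norm_num,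
        Real.rpow_one] at this
    have := Real.rpow_le_rpow (by positivity) h1 (show (0 : ℝ) ≤ 1 / 3 by norm_num)
    rwa [← Real.rpow_mul (by positivity), show (3 * (1 / 3) : ℝ) = 1 by norm_num,
      Real.rpow_one, div_le_iff₀' C0] at this
  · by_contra hlt
    have h := P074.cube_body d
    have := h.prob
    obtain ⟨C, hC⟩ := hα.2 (P074.cube d) (Metric.closedBall 0 2) ⟨h.cpt, h.cvx, h.int⟩
      (isCompact_closedBall _ _) ⟨0, by simp⟩
    obtain ⟨c, c0, hc⟩ := P074.example_pair hd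
    obtain ⟨η, e0, e1, hη⟩ := P074.small (C := C) c0 (not_le.1 hlt) hα.1.2
    obtain ⟨a, b, κ, t, ha, hb, oa, ob, k1, k2, t1, t0, t2, t3⟩ := hc η e0 e1
    have hP : ∀ a : Rd d, ‖a‖ ≤ 2 →
        ProbOn (Metric.closedBall 0 2) ((P074.un (P074.cube d)).map (P074.tp a)) := fun a ha =>
      ⟨Measure.isProbabilityMeasure_map (P074.tp_meas a).aemeasurable,
        (ae_map_iff (P074.tp_meas a).aemeasurable measurableSet_closedBall).2
          (Filter.Eventually.of_forall fun x => by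
            rcases P074.tp_mem a x with e | e
            · simp [e]
            · rw [e]; simpa using ha)⟩
    have := hC _ _ (hP a ha) (hP b hb) _ _ oa ob
    refine (t3.trans this).not_gt (hη t _ t1 t0 (Real.sInf_nonneg ?_) (csInf_le ⟨0, ?_⟩
      ⟨κ, k1, k2, t2.symm⟩))
    all_goals rintro w ⟨κ, -, -, rfl⟩; exact Real.sqrt_nonneg _
  · obtain ⟨R, h⟩ := hB K hK
    have := hμ.1
    exact P074.exists_optMap h (by omega) hY μ hμ.2

end Vale.Agent.Results.P074.OneThird
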